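import Vale.Agent.P369.H587.DpThm
import Vale.Agent.P369.H688.BS

/-!
P369 (helper143), finite-matrix track, package LIM: the mean photon number of the output of the
beam splitter,
`E_C = s² E_A + t² E_B + 2 s t Re ∑_j conj (Tr A a_j) Tr (B b_j)`.
-/

set_option linter.all false

namespace Vale.Agent.P369.FD

open Matrix
open Vale.Agent.P369 (Conf up down ampn g)
open Vale.Agent.P369A (Ct)
open scoped Kronecker ComplexOrder

noncomputable section

section split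

variable {ι ι' κ ε J : Type} [Fintype ι] [DecidableEq ι] [Fintype ι'] [DecidableEq ι']
  [Fintype κ] [DecidableEq κ] [Fintype ε] [DecidableEq ε] [Fintype J]
  {s t s' t' : ℝ} {a : J → Matrix ι ι ℂ} {b : J → Matrix ι' ι' ℂ} {c : J → Matrix κ κ ℂ}
  {d : J → Matrix ε ε ℂ} {W : Matrix (κ × ε) (ι × ι') ℂ}

/-- `W† (c† c ⊗ 1) W = (s a + t b)† (s a + t b)` -/
theorem Split.pull_nm (h : Split s t s' t' a b c d W) (j : J) :
    Wᴴ * (((c j)ᴴ * c j) ⊗ₖ (1 : Matrix ε ε ℂ)) * W =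
      (((s : ℝ) : ℂ) • (a j ⊗ₖ (1 : Matrix ι' ι' ℂ)) +
          ((t : ℝ) : ℂ) • ((1 : Matrix ι ι ℂ) ⊗ₖ b j))ᴴ *
        (((s : ℝ) : ℂ) • (a j ⊗ₖ (1 : Matrix ι' ι' ℂ)) +
          ((t : ℝ) : ℂ) • ((1 : Matrix ι ι ℂ) ⊗ₖ b j)) := by
  have h1 : ((c j)ᴴ * c j) ⊗ₖ (1 : Matrix ε ε ℂ) =
      (c j ⊗ₖ (1 : Matrix ε ε ℂ))ᴴ * (c j ⊗ₖ (1 : Matrix ε ε ℂ)) := by
    rw [Matrix.conjTranspose_kronecker, ← Matrix.mul_kronecker_mul, Matrix.conjTranspose_one,
      Matrix.one_mul]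
  have h2 : Wᴴ * ((c j ⊗ₖ (1 : Matrix ε ε ℂ))ᴴ * (c j ⊗ₖ (1 : Matrix ε ε ℂ))) * W =
      ((c j ⊗ₖ (1 : Matrix ε ε ℂ)) * W)ᴴ * ((c j ⊗ₖ (1 : Matrix ε ε ℂ)) * W) := by
    rw [Matrix.conjTranspose_mul]
    simp only [Matrix.mul_assoc]
  rw [h1, h2, h.hc j, Matrix.conjTranspose_mul]
  rw [Matrix.mul_assoc, ← Matrix.mul_assoc Wᴴ, h.iso, Matrix.one_mul]

/-- the photon number of mode `j` of the output -/
theorem Split.trace_outp_mode (h : Split s t s' t' a b c d W) (A : Matrix ι ι ℂ)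
    (B : Matrix ι' ι' ℂ) (j : J) :
    (outp W A B * ((c j)ᴴ * c j)).trace =
      ((s : ℝ) : ℂ) ^ 2 * ((A * ((a j)ᴴ * a j)).trace * B.trace) +
      ((t : ℝ) : ℂ) ^ 2 * (A.trace * (B * ((b j)ᴴ * b j)).trace) +
      ((s : ℝ) : ℂ) * ((t : ℝ) : ℂ) *
        ((A * (a j)ᴴ).trace * (B * b j).trace + (A * a j).trace * (B * (b j)ᴴ).trace) := by
  have h0 : (outp W A B * ((c j)ᴴ * c j)).trace =
      ((A ⊗ₖ B) * (Wᴴ * (((c j)ᴴ * c j) ⊗ₖ (1 : Matrix ε ε ℂ)) * W)).trace :=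
    Vale.P369.H587.trace_outC_mul W A B _
  rw [h0, h.pull_nm j]
  have h3 : (((s : ℝ) : ℂ) • (a j ⊗ₖ (1 : Matrix ι' ι' ℂ)) +
          ((t : ℝ) : ℂ) • ((1 : Matrix ι ι ℂ) ⊗ₖ b j))ᴴ *
        (((s : ℝ) : ℂ) • (a j ⊗ₖ (1 : Matrix ι' ι' ℂ)) +
          ((t : ℝ) : ℂ) • ((1 : Matrix ι ι ℂ) ⊗ₖ b j)) =
      ((s : ℝ) : ℂ) ^ 2 • (((a j)ᴴ * a j) ⊗ₖ (1 : Matrix ι' ι' ℂ)) +
      ((t : ℝ) : ℂ) ^ 2 • ((1 : Matrix ι ι ℂ) ⊗ₖ ((b j)ᴴ * b j)) +
      (((s : ℝ) : ℂ) * ((t : ℝ) : ℂ)) • ((a j)ᴴ ⊗ₖ b j) +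
      (((s : ℝ) : ℂ) * ((t : ℝ) : ℂ)) • (a j ⊗ₖ (b j)ᴴ) := by
    rw [Matrix.conjTranspose_add, Matrix.conjTranspose_smul, Matrix.conjTranspose_smul,
      Matrix.conjTranspose_kronecker, Matrix.conjTranspose_kronecker, Matrix.conjTranspose_one,
      Matrix.conjTranspose_one]
    simp only [Matrix.add_mul, Matrix.mul_add, Matrix.smul_mul, Matrix.mul_smul,
      ← Matrix.mul_kronecker_mul, Matrix.one_mul, Matrix.mul_one, smul_smul]
    have hs : star (((s : ℝ) : ℂ)) = ((s : ℝ) : ℂ) := Complex.conj_ofReal s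
    have ht : star (((t : ℝ) : ℂ)) = ((t : ℝ) : ℂ) := Complex.conj_ofReal t
    rw [hs, ht, sq, sq]
    simp only [smul_add, smul_smul]
    rw [mul_comm ((t : ℝ) : ℂ) ((s : ℝ) : ℂ)]
    abel
  rw [h3]
  simp only [Matrix.mul_add, Matrix.mul_smul, ← Matrix.mul_kronecker_mul, Matrix.mul_one,
    Matrix.trace_add, Matrix.trace_smul, Matrix.trace_kronecker, smul_eq_mul]
  ring

/-- the energy of the output -/
theorem Split.trace_nm_outp (h : Split s t s' t' a b c d W) {A : Matrix ι ι ℂ}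
    {B : Matrix ι' ι' ℂ} (hA : IsDM A) (hB : IsDM B) :
    (nm c * outp W A B).trace.re =
      s ^ 2 * (nm a * A).trace.re + t ^ 2 * (nm b * B).trace.re +
        2 * (s * t) * ∑ j, (star (A * a j).trace * (B * b j).trace).re := by
  have e1 : (nm c * outp W A B).trace.re = ∑ j, (outp W A B * ((c j)ᴴ * c j)).trace.re := by
    rw [Matrix.trace_mul_comm, nm, Finset.mul_sum, Matrix.trace_sum, Complex.re_sum]
  have e2 : (nm a * A).trace.re = ∑ j, (A * ((a j)ᴴ * a j)).trace.re := by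
    rw [Matrix.trace_mul_comm, nm, Finset.mul_sum, Matrix.trace_sum, Complex.re_sum]
  have e3 : (nm b * B).trace.re = ∑ j, (B * ((b j)ᴴ * b j)).trace.re := by
    rw [Matrix.trace_mul_comm, nm, Finset.mul_sum, Matrix.trace_sum, Complex.re_sum]
  rw [e1, e2, e3, Finset.mul_sum, Finset.mul_sum, Finset.mul_sum, ← Finset.sum_add_distrib,
    ← Finset.sum_add_distrib]
  refine Finset.sum_congr rfl fun j _ => ?_
  have hAs : (A * (a j)ᴴ).trace = star (A * a j).trace := by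
    rw [← Matrix.trace_conjTranspose, Matrix.conjTranspose_mul, hA.1.isHermitian.eq,
      Matrix.trace_mul_comm]
  have hBs : (B * (b j)ᴴ).trace = star (B * b j).trace := by
    rw [← Matrix.trace_conjTranspose, Matrix.conjTranspose_mul, hB.1.isHermitian.eq,
      Matrix.trace_mul_comm]
  rw [h.trace_outp_mode A B j, hA.2, hB.2, hAs, hBs, mul_one, one_mul]
  set z := (A * a j).trace
  set w := (B * b j).trace
  set x := (A * ((a j)ᴴ * a j)).trace
  set y := (B * ((b j)ᴴ * b j)).trace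
  have hz : star z = (starRingEnd ℂ) z := rfl
  have hw : star w = (starRingEnd ℂ) w := rfl
  simp only [hz, hw, Complex.add_re, Complex.mul_re, Complex.mul_im, Complex.add_im,
    Complex.conj_re, Complex.conj_im, Complex.ofReal_re, Complex.ofReal_im, sq]
  ring

end split

section fock

variable {n : ℕ}

/-- `E = Re Tr n A` -/
theorem enr_eq {X : ℕ} (A : Matrix (Ct n X) (Ct n X) ℂ) :
    enr A = (nm (low (n := n) X) * A).trace.re := by
  rw [nm_low, fnum, enr, Matrix.trace, Complex.re_sum]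
  refine Finset.sum_congr rfl fun k _ => ?_
  rw [Matrix.diag_apply, Matrix.diagonal_mul, tot, Complex.mul_re, Complex.ofReal_re,
    Complex.ofReal_im, zero_mul, sub_zero]

/-- the mean photon number of the output of the beam splitter -/
theorem enr_outp {η : ℝ} (h0 : 0 ≤ η) (h1 : η ≤ 1) (D : ℕ) {A B : Matrix (Ct n D) (Ct n D) ℂ}
    (hA : IsDM A) (hB : IsDM B) :
    enr (outp (bsW n η D) A B) = η * enr A + (1 - η) * enr B +
      2 * (Real.sqrt η * Real.sqrt (1 - η)) *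
        ∑ j, (star (A * low D j).trace * (B * low D j).trace).re := by
  have h := (thm_BS n η h0 h1 D).trace_nm_outp hA hB
  rw [Real.sq_sqrt h0, Real.sq_sqrt (by linarith : 0 ≤ 1 - η)] at h
  rw [enr_eq, enr_eq, enr_eq, h]

/-- an upper bound of the cross term -/
theorem enr_outp_ge {η : ℝ} (h0 : 0 ≤ η) (h1 : η ≤ 1) (D : ℕ) {A B : Matrix (Ct n D) (Ct n D) ℂ}
    (hA : IsDM A) (hB : IsDM B) {x : ℝ} (hxA : ∀ j, ‖(A * low D j).trace‖ ^ 2 ≤ x)
    (hxB : ∀ j, ‖(B * low D j).trace‖ ^ 2 ≤ x) :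
    |enr (outp (bsW n η D) A B) - (η * enr A + (1 - η) * enr B)| ≤ n * x := by
  rw [enr_outp h0 h1 D hA hB]
  have hs0 := Real.sqrt_nonneg η
  have ht0 := Real.sqrt_nonneg (1 - η)
  have hst : 2 * (Real.sqrt η * Real.sqrt (1 - η)) ≤ 1 := by
    nlinarith [sq_nonneg (Real.sqrt η - Real.sqrt (1 - η)), Real.sq_sqrt h0,
      Real.sq_sqrt (by linarith : 0 ≤ 1 - η)]
  have hst0 : 0 ≤ 2 * (Real.sqrt η * Real.sqrt (1 - η)) := by positivity
  have hsum : |∑ j : Fin n, (star (A * low D j).trace * (B * low D j).trace).re| ≤ n * x := by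
    refine (Finset.abs_sum_le_sum_abs _ _).trans ?_
    have hj : ∀ j : Fin n, |(star (A * low D j).trace * (B * low D j).trace).re| ≤ x := by
      intro j
      refine (Complex.abs_re_le_norm _).trans ?_
      rw [norm_mul, norm_star]
      nlinarith [hxA j, hxB j, sq_nonneg (‖(A * low D j).trace‖ - ‖(B * low D j).trace‖)]
    refine (Finset.sum_le_sum fun j _ => hj j).trans ?_
    rw [Finset.sum_const, Finset.card_univ, Fintype.card_fin, nsmul_eq_mul]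
  rw [add_sub_cancel_left, abs_mul, abs_of_nonneg hst0]
  calc _ ≤ 1 * |∑ j : Fin n, (star (A * low D j).trace * (B * low D j).trace).re| :=
        mul_le_mul_of_nonneg_right hst (abs_nonneg _)
    _ ≤ n * x := by rw [one_mul]; exact hsum

/-- the energy of a positive matrix is nonnegative -/
theorem enr_nonneg {X : ℕ} {A : Matrix (Ct n X) (Ct n X) ℂ} (hA : A.PosSemidef) : 0 ≤ enr A := by
  refine Finset.sum_nonneg fun k _ => mul_nonneg (by unfold tot; positivity) ?_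
  have h : 0 ≤ A k k := hA.diag_nonneg
  exact (Complex.le_def.1 h).1

end fock

end

end Vale.Agent.P369.FD
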